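import Vale.Agent.P181.H179.P3

/-!
# P181: the exchange of a whole column, from the exchange of one box
-/

set_option autoImplicit false

namespace Vale.Agent.P181.H292.GK

open Finset Vale.Agent.P181.H179

variable {B α : Type*} [DecidableEq B] {M : ℕ}

/-- The product of the transpositions `(τ i, κ (h i))`. -/
def P (τ : ℕ → B) (κ : Fin M → B) : (k : ℕ) → (Fin k → Fin M) → Equiv.Perm B
  | 0, _ => 1
  | k + 1, h => P τ κ k (fun i => h i.castSucc) * Equiv.swap (τ k) (κ (h (Fin.last k)))

variable {τ : ℕ → B} {κ : Fin M → B} {m : ℕ}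

theorem P_other : ∀ (k : ℕ) (h : Fin k → Fin M) (b : B), (∀ i < k, b ≠ τ i) →
    (∀ i, b ≠ κ (h i)) → P τ κ k h b = b
  | 0, _, _, _, _ => rfl
  | k + 1, h, b, h1, h2 => by
    show P τ κ k (fun i => h i.castSucc) (Equiv.swap (τ k) (κ (h (Fin.last k))) b) = b
    rw [Equiv.swap_apply_of_ne_of_ne (h1 k (by omega)) (h2 _)]
    exact P_other k _ b (fun i hi => h1 i (by omega)) fun i => h2 _

theorem P_τ (hτ : ∀ i < m, ∀ j < m, τ i = τ j → i = j) (hκ : Function.Injective κ)
    (hd : ∀ i < m, ∀ w, τ i ≠ κ w) : ∀ (k : ℕ) (h : Fin k → Fin M), k ≤ m →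
    Function.Injective h → ∀ i : Fin k, P τ κ k h (τ i) = κ (h i)
  | 0, _, _, _, i => i.elim0
  | k + 1, h, hk, hi, i => by
    show P τ κ k (fun i => h i.castSucc) (Equiv.swap (τ k) (κ (h (Fin.last k))) (τ i)) = κ (h i)
    have hi' : Function.Injective fun i : Fin k => h i.castSucc := fun a b hab =>
      Fin.castSucc_injective k (hi hab)
    induction i using Fin.lastCases with
    | last =>
      rw [Fin.val_last, Equiv.swap_apply_left]
      refine P_other k _ _ (fun j hj => (hd j (by omega) _).symm) fun j e => ?_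
      have := hi (hκ e)
      exact absurd this (Fin.castSucc_lt_last j).ne'
    | cast i =>
      rw [Fin.val_castSucc, Equiv.swap_apply_of_ne_of_ne]
      · exact P_τ hτ hκ hd k _ (by omega) hi' i
      · intro e
        have := hτ _ (by omega) _ (by omega) e
        omega
      · exact hd _ (by omega) _

theorem P_κ (hτ : ∀ i < m, ∀ j < m, τ i = τ j → i = j) (hκ : Function.Injective κ)
    (hd : ∀ i < m, ∀ w, τ i ≠ κ w) : ∀ (k : ℕ) (h : Fin k → Fin M), k ≤ m →
    Function.Injective h → ∀ i : Fin k, P τ κ k h (κ (h i)) = τ i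
  | 0, _, _, _, i => i.elim0
  | k + 1, h, hk, hi, i => by
    show P τ κ k (fun i => h i.castSucc) (Equiv.swap (τ k) (κ (h (Fin.last k))) (κ (h i))) = τ i
    have hi' : Function.Injective fun i : Fin k => h i.castSucc := fun a b hab =>
      Fin.castSucc_injective k (hi hab)
    induction i using Fin.lastCases with
    | last =>
      rw [Fin.val_last, Equiv.swap_apply_right]
      refine P_other k _ _ (fun j hj e => ?_) fun j => hd k (by omega) _
      have := hτ _ (by omega) _ (by omega) e
      omega
    | cast i =>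
      rw [Fin.val_castSucc, Equiv.swap_apply_of_ne_of_ne]
      · exact P_κ hτ hκ hd k _ (by omega) hi' i
      · exact (hd k (by omega) _).symm
      · intro e
        have := hi (hκ e)
        exact absurd this (Fin.castSucc_lt_last i).ne

theorem sum_snoc {k : ℕ} (f : (Fin (k + 1) → Fin M) → ℂ) :
    ∑ h', f h' = ∑ h : Fin k → Fin M, ∑ w, f (Fin.snoc h w) := by
  rw [← Equiv.sum_comp (Fin.snocEquiv fun _ => Fin M), Fintype.sum_prod_type, Finset.sum_comm]
  rfl

theorem snoc_inj {k : ℕ} (h : Fin k → Fin M) (w : Fin M) :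
    Function.Injective (Fin.snoc h w : Fin (k + 1) → Fin M) ↔
      Function.Injective h ∧ ∀ i, w ≠ h i := by
  constructor
  · intro hi
    refine ⟨fun a b hab => ?_, fun i e => ?_⟩
    · have : (Fin.snoc h w : Fin (k + 1) → Fin M) a.castSucc =
          (Fin.snoc h w : Fin (k + 1) → Fin M) b.castSucc := by
        simpa using hab
      exact Fin.castSucc_injective k (hi this)
    · have : (Fin.snoc h w : Fin (k + 1) → Fin M) (Fin.last k) =
          (Fin.snoc h w : Fin (k + 1) → Fin M) i.castSucc := by
        simpa using e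
      exact absurd (hi this) (Fin.castSucc_lt_last i).ne'
  · rintro ⟨hi, hw⟩ a b hab
    induction a using Fin.lastCases with
    | last =>
      induction b using Fin.lastCases with
      | last => rfl
      | cast b =>
        exact absurd (by simpa using hab) (hw b)
    | cast a =>
      induction b using Fin.lastCases with
      | last => exact absurd (by simpa using hab.symm) (hw a)
      | cast b =>
        have e : a = b := hi (by simpa using hab)
        rw [e]

/-- **The exchange of `k` boxes.** -/
theorem multi (V : (B → α) → ℂ) (hτ : ∀ i < m, ∀ j < m, τ i = τ j → i = j)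
    (hκ : Function.Injective κ) (hd : ∀ i < m, ∀ w, τ i ≠ κ w)
    (hanti : ∀ e, ∀ u < m, ∀ v < m, u ≠ v → V (fun p => e (Equiv.swap (τ u) (τ v) p)) = -V e)
    (hG : ∀ e, ∀ v < m, V e = ∑ w, V (fun p => e (Equiv.swap (τ v) (κ w) p))) :
    ∀ k ≤ m, ∀ e : B → α, ∑ h : Fin k → Fin M,
      (if Function.Injective h then V (fun p => e (P τ κ k h p)) else 0) = k.factorial * V e := by
  classical
  intro k
  induction k with
  | zero =>
    intro _ e
    rw [Fintype.sum_unique, if_pos (Function.injective_of_subsingleton _)]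
    simp [P]
  | succ k ih =>
    intro hk e
    have hk' : k ≤ m := by omega
    -- one more exchange
    have h1 : ∀ h : Fin k → Fin M, (if Function.Injective h then
        V (fun p => e (P τ κ k h p)) else 0) =
        (∑ w, if Function.Injective (Fin.snoc h w : Fin (k + 1) → Fin M) then
          V (fun p => e (P τ κ (k + 1) (Fin.snoc h w) p)) else 0) +
        ∑ u : Fin k, if Function.Injective h then
          V (fun p => (fun q => e (Equiv.swap (τ k) (τ u) q)) (P τ κ k h p)) else 0 := by
      intro h
      by_cases hi : Function.Injective h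
      swap
      · have : ∀ w, ¬ Function.Injective (Fin.snoc h w : Fin (k + 1) → Fin M) := fun w hw =>
          hi ((snoc_inj h w).1 hw).1
        simp [hi, this]
      have e1 := hG (fun p => e (P τ κ k h p)) k (by omega)
      have e2 : ∀ w, V (fun p => e (P τ κ k h (Equiv.swap (τ k) (κ w) p))) =
          (if Function.Injective (Fin.snoc h w : Fin (k + 1) → Fin M) then
            V (fun p => e (P τ κ (k + 1) (Fin.snoc h w) p)) else 0) +
          (if ∃ u, w = h u then V (fun p => e (P τ κ k h (Equiv.swap (τ k) (κ w) p)))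
            else 0) := by
        intro w
        by_cases hw : ∃ u, w = h u
        · have : ¬ Function.Injective (Fin.snoc h w : Fin (k + 1) → Fin M) := fun hh => by
            obtain ⟨u, hu⟩ := hw
            exact ((snoc_inj h w).1 hh).2 u hu
          rw [if_neg this, if_pos hw, zero_add]
        · have : Function.Injective (Fin.snoc h w : Fin (k + 1) → Fin M) :=
            (snoc_inj h w).2 ⟨hi, fun i hh => hw ⟨i, hh⟩⟩
          rw [if_pos this, if_neg hw, add_zero]
          congr 1
          funext p
          show _ = e ((P τ κ k (fun i => (Fin.snoc h w : Fin (k + 1) → Fin M) i.castSucc) *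
            Equiv.swap (τ k) (κ ((Fin.snoc h w : Fin (k + 1) → Fin M) (Fin.last k)))) p)
          simp only [Fin.snoc_castSucc, Fin.snoc_last]
          rfl
      rw [if_pos hi, e1, Finset.sum_congr rfl fun w _ => e2 w, Finset.sum_add_distrib]
      congr 1
      have e3 : ∑ w, (if ∃ u, w = h u then V (fun p => e (P τ κ k h (Equiv.swap (τ k) (κ w) p)))
            else 0) = ∑ u, V (fun p => e (P τ κ k h (Equiv.swap (τ k) (κ (h u)) p))) := by
        rw [← Finset.sum_filter]
        have : (univ.filter fun w => ∃ u, w = h u) = univ.image h := by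
          ext w
          simp [eq_comm]
        rw [this, Finset.sum_image fun a _ b _ hab => hi hab]
      rw [e3]
      refine Finset.sum_congr rfl fun u _ => ?_
      rw [if_pos hi]
      congr 1
      funext p
      have e4 : P τ κ k h * Equiv.swap (τ k) (κ (h u)) =
          Equiv.swap (P τ κ k h (τ k)) (P τ κ k h (κ (h u))) * P τ κ k h :=
        Equiv.mul_swap_eq_swap_mul _ _ _
      have e5 : P τ κ k h (τ k) = τ k := P_other k h _ (fun i hi' e => by
        have := hτ _ (by omega) _ (by omega) e
        omega) fun i => hd k (by omega) _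
      rw [e5, P_κ hτ hκ hd k h hk' hi] at e4
      have e6 := congrArg (fun σ : Equiv.Perm B => σ p) e4
      simp only [Equiv.Perm.mul_apply] at e6
      exact congrArg e e6
    have h2 := ih hk' e
    rw [Finset.sum_congr rfl fun h _ => h1 h, Finset.sum_add_distrib, ← sum_snoc
      (fun h' => if Function.Injective h' then V (fun p => e (P τ κ (k + 1) h' p)) else 0),
      Finset.sum_comm] at h2
    have h3 : ∀ u : Fin k, ∑ h : Fin k → Fin M, (if Function.Injective h then
        V (fun p => (fun q => e (Equiv.swap (τ k) (τ u) q)) (P τ κ k h p)) else 0) =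
          -(k.factorial * V e) := by
      intro u
      rw [ih hk' fun q => e (Equiv.swap (τ k) (τ u) q), hanti e k (by omega) u (by omega)
        (by omega)]
      ring
    rw [Finset.sum_congr rfl fun u _ => h3 u, Finset.sum_const, card_univ, Fintype.card_fin,
      nsmul_eq_mul] at h2
    rw [Nat.factorial_succ]
    push_cast
    linear_combination h2

/-- **The exchange of a whole column.** -/
theorem gk {a N : ℕ} {l : Fin N → ℕ} (V : (Box l → Fin a) → ℂ)
    (hanti : ∀ e t (v v' : Fin (l t)), v ≠ v' →
      V (fun p => e (Equiv.swap ⟨t, v⟩ ⟨t, v'⟩ p)) = -V e)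
    (hG : ∀ e (t t1 : Fin N), t ≠ t1 → l t ≤ l t1 → ∀ v : Fin (l t),
      V e = ∑ w : Fin (l t1), V (fun p => e (Equiv.swap ⟨t, v⟩ ⟨t1, w⟩ p)))
    {t t1 : Fin N} (hne : t ≠ t1) (hl : l t ≤ l t1) {e : Box l → Fin a} (he : V e ≠ 0) :
    ∃ (h : Fin (l t) → Fin (l t1)) (σ : Equiv.Perm (Box l)), Function.Injective h ∧
      V (fun p => e (σ p)) ≠ 0 ∧ (∀ v, σ ⟨t, v⟩ = ⟨t1, h v⟩) ∧ (∀ v, σ ⟨t1, h v⟩ = ⟨t, v⟩) ∧
      ∀ p, p.1 ≠ t → (∀ v, p ≠ ⟨t1, h v⟩) → σ p = p := by
  classical
  rcases Nat.eq_zero_or_pos (l t) with h0 | h0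
  · have : IsEmpty (Fin (l t)) := by rw [h0]; infer_instance
    exact ⟨fun v => isEmptyElim v, 1, fun v => isEmptyElim v, he, fun v => isEmptyElim v,
      fun v => isEmptyElim v, fun p _ _ => rfl⟩
  set τ : ℕ → Box l := fun v => ⟨t, if hv : v < l t then ⟨v, hv⟩ else ⟨0, h0⟩⟩ with hτd
  set κ : Fin (l t1) → Box l := fun w => ⟨t1, w⟩ with hκd
  have τv : ∀ v (hv : v < l t), τ v = ⟨t, ⟨v, hv⟩⟩ := fun v hv => by
    rw [hτd]
    simp [hv]
  have hτ : ∀ i < l t, ∀ j < l t, τ i = τ j → i = j := by
    intro i hi j hj hij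
    rw [τv i hi, τv j hj] at hij
    have := eq_of_heq (Sigma.mk.inj hij).2
    exact Fin.mk.inj_iff.1 this
  have hκ : Function.Injective κ := fun a b hab => eq_of_heq (Sigma.mk.inj hab).2
  have hd : ∀ i < l t, ∀ w, τ i ≠ κ w := fun i hi w hh => hne (Sigma.mk.inj hh).1
  have key := multi (m := l t) (τ := τ) (κ := κ) V hτ hκ hd (fun e u hu v hv huv => by
    rw [τv u hu, τv v hv]
    exact hanti e t _ _ fun hh => huv (Fin.mk.inj_iff.1 hh)) (fun e v hv => by
    rw [τv v hv]
    exact hG e t t1 hne hl _) (l t) le_rfl e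
  have hex : ∃ h : Fin (l t) → Fin (l t1), (if Function.Injective h then
      V (fun p => e (P τ κ (l t) h p)) else 0) ≠ 0 := by
    by_contra hcon
    push Not at hcon
    rw [Finset.sum_congr rfl fun h _ => hcon h, Finset.sum_const_zero] at key
    have := mul_ne_zero (Nat.cast_ne_zero.2 (Nat.factorial_ne_zero (l t))) he
    exact this key.symm
  obtain ⟨h, hh⟩ := hex
  have hi : Function.Injective h := by
    by_contra hcon
    exact hh (if_neg hcon)
  rw [if_pos hi] at hh
  refine ⟨h, P τ κ (l t) h, hi, hh, fun v => ?_, fun v => ?_, fun p hp hq => ?_⟩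
  · have := P_τ hτ hκ hd (l t) h le_rfl hi v
    rw [τv v v.2] at this
    exact this
  · have := P_κ hτ hκ hd (l t) h le_rfl hi v
    rw [τv v v.2] at this
    exact this
  · exact P_other (l t) h p (fun i hi' hpi => hp (by rw [hpi])) fun i => hq i

end Vale.Agent.P181.H292.GK
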