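import Vale.Agent.P181.LK.Spec
import Vale.Agent.P181.H292.GK

/-!
# P181: row GK
-/

set_option autoImplicit false

namespace Vale.Agent.P181.H292

open Finset

theorem rowGK : LK.RowGK := by
  classical
  intro B A instB k m x w hx hw hd V hanti hG e he
  rcases Nat.eq_zero_or_pos k with h0 | h0
  · subst h0
    refine ⟨fun v => v.elim0, fun v => v.elim0, ?_⟩
    have : LK.exch x w (fun v => v.elim0) e = e := by
      funext p
      unfold LK.exch
      rw [dif_neg (fun ⟨i, _⟩ => i.elim0), dif_neg (fun ⟨i, _⟩ => i.elim0)]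
    rw [this]
    exact he
  set τ : ℕ → B := fun v => x (if hv : v < k then ⟨v, hv⟩ else ⟨0, h0⟩) with hτd
  have τv : ∀ v (hv : v < k), τ v = x ⟨v, hv⟩ := fun v hv => by
    rw [hτd]
    simp [hv]
  have hτ : ∀ i < k, ∀ j < k, τ i = τ j → i = j := by
    intro i hi j hj hij
    rw [τv i hi, τv j hj] at hij
    exact Fin.mk.inj_iff.1 (hx hij)
  have hdd : ∀ i < k, ∀ j, τ i ≠ w j := fun i hi j => by
    rw [τv i hi]
    exact hd _ _
  have key := GK.multi (m := k) (τ := τ) (κ := w) V hτ hw hdd (fun e u hu v hv huv => by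
    rw [τv u hu, τv v hv]
    exact hanti e _ _ fun hh => huv (Fin.mk.inj_iff.1 hh)) (fun e v hv => by
    rw [τv v hv]
    exact hG e _) k le_rfl e
  have hex : ∃ h : Fin k → Fin m, (if Function.Injective h then
      V (fun p => e (GK.P τ w k h p)) else 0) ≠ 0 := by
    by_contra hcon
    push Not at hcon
    rw [Finset.sum_congr rfl fun h _ => hcon h, Finset.sum_const_zero] at key
    exact mul_ne_zero (Nat.cast_ne_zero.2 (Nat.factorial_ne_zero k)) he key.symm
  obtain ⟨h, hh⟩ := hex
  have hi : Function.Injective h := by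
    by_contra hcon
    exact hh (if_neg hcon)
  rw [if_pos hi] at hh
  refine ⟨h, hi, ?_⟩
  have : LK.exch x w h e = fun p => e (GK.P τ w k h p) := by
    funext p
    unfold LK.exch
    by_cases h1 : ∃ i, x i = p
    · rw [dif_pos h1]
      have e1 := GK.P_τ hτ hw hdd k h le_rfl hi h1.choose
      rw [τv _ h1.choose.2, Fin.eta, h1.choose_spec] at e1
      rw [e1]
    · rw [dif_neg h1]
      by_cases h2 : ∃ i, w (h i) = p
      · rw [dif_pos h2]
        have e1 := GK.P_κ hτ hw hdd k h le_rfl hi h2.choose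
        rw [τv _ h2.choose.2, Fin.eta, h2.choose_spec] at e1
        rw [e1]
      · rw [dif_neg h2, GK.P_other k h p (fun i hi' hp => h1 ⟨⟨i, hi'⟩, by
          rw [hp, τv i hi']⟩) fun i hp => h2 ⟨i, hp.symm⟩]
  rw [this]
  exact hh

end Vale.Agent.P181.H292
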